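import Vale.Agent.P065.UB.Defs

/-!
# P065: ROW C (pieces) for the limit of `e_k(n) / n` (helper110)
-/

set_option autoImplicit false

namespace Vale.Agent.P065.R2.H841.H110

open Finset Vale.Agent.P065.UB

theorem ht_sl {p q : Pt} (h : p.1 < q.1) : ht (sl p q) q = ht (sl p q) p := by
  have h0 : q.1 - p.1 ≠ 0 := by linarith
  unfold ht sl
  field_simp
  ring

open Classical in
/-- the points which are active at some `k`-edge of slope at most `s` -/
noncomputable def Up (P : Finset Pt) (k : ℕ) (s : ℝ) : Finset Pt :=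
  {p ∈ P | ∃ e ∈ Ed P k, sl e.1 e.2 ≤ s ∧ ht (sl e.1 e.2) p ≤ ht (sl e.1 e.2) e.1}

theorem Up_mono (P : Finset Pt) (k : ℕ) {s t : ℝ} (h : s ≤ t) : Up P k s ⊆ Up P k t := by
  classical
  intro p hp
  unfold Up at hp ⊢
  rw [mem_filter] at hp ⊢
  obtain ⟨h1, e, he, h2, h3⟩ := hp
  exact ⟨h1, e, he, h2.trans h, h3⟩

open Classical in
theorem below_le {P : Finset Pt} {k : ℕ} {e : Pt × Pt} (he : e ∈ Ed P k) {p : Pt}
    (hp : ht (sl e.1 e.2) p ≤ ht (sl e.1 e.2) e.1) :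
    #{u ∈ P | ht (sl e.1 e.2) u < ht (sl e.1 e.2) p} ≤ k := by
  have h := (mem_filter.1 he).2.2
  refine (card_le_card fun u hu => ?_).trans h.le
  rw [mem_filter] at hu ⊢
  exact ⟨hu.1, hu.2.trans_le hp⟩

open Classical in
theorem below_both {P : Finset Pt} (hP : Good P) {k : ℕ} {s : ℝ} {p : Pt} (hpP : p ∈ P)
    (h1 : ∃ e ∈ Ed P k, sl e.1 e.2 ≤ s ∧ ht (sl e.1 e.2) p ≤ ht (sl e.1 e.2) e.1)
    (h2 : ∃ e ∈ Ed P k, s ≤ sl e.1 e.2 ∧ ht (sl e.1 e.2) p ≤ ht (sl e.1 e.2) e.1) :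
    #{u ∈ P | ht s u < ht s p} ≤ 2 * k := by
  obtain ⟨e, he, hes, hep⟩ := h1
  obtain ⟨e', he', hes', hep'⟩ := h2
  have hsub : {u ∈ P | ht s u < ht s p} ⊆ {u ∈ P | ht (sl e.1 e.2) u < ht (sl e.1 e.2) p} ∪
      {u ∈ P | ht (sl e'.1 e'.2) u < ht (sl e'.1 e'.2) p} := by
    intro u hu
    rw [mem_filter] at hu
    obtain ⟨huP, hlt⟩ := hu
    rw [mem_union, mem_filter, mem_filter]
    rcases lt_trichotomy u.1 p.1 with h | h | h
    · left
      refine ⟨huP, ?_⟩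
      unfold ht at hlt ⊢
      have := mul_le_mul_of_nonneg_right hes (sub_nonneg.2 h.le)
      nlinarith
    · have := hP.xinj u huP p hpP h
      rw [this] at hlt
      exact absurd hlt (lt_irrefl _)
    · right
      refine ⟨huP, ?_⟩
      unfold ht at hlt ⊢
      have := mul_le_mul_of_nonneg_right hes' (sub_nonneg.2 h.le)
      nlinarith
  have ha := below_le he hep
  have hb := below_le he' hep'
  have := (card_le_card hsub).trans (card_union_le _ _)
  omega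

open Classical in
theorem card_top {P : Finset Pt} (hP : Good P) {c : ℕ} {s : ℝ} (S : Finset Pt) (hS : S ⊆ P)
    (h : ∀ p ∈ S, #{u ∈ P | ht s u < ht s p} ≤ c) : #S ≤ c + 2 := by
  rcases S.eq_empty_or_nonempty with rfl | hne
  · simp
  obtain ⟨p, hpS, hmax⟩ := S.exists_max_image (fun u => ht s u) hne
  have hsub : S ⊆ {u ∈ P | ht s u < ht s p} ∪ {u ∈ S | ht s u = ht s p} := by
    intro u hu
    rw [mem_union, mem_filter, mem_filter]
    rcases lt_or_eq_of_le (hmax u hu) with h' | h'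
    · exact Or.inl ⟨hS hu, h'⟩
    · exact Or.inr ⟨hu, h'⟩
  have h2 : #{u ∈ S | ht s u = ht s p} ≤ 2 := by
    by_contra hcon
    push Not at hcon
    obtain ⟨a, b, d, ha, hb, hd, hab, had, hbd⟩ := two_lt_card_iff.1 hcon
    rw [mem_filter] at ha hb hd
    exact hP.gen s a (hS ha.1) b (hS hb.1) d (hS hd.1) hab had hbd (ha.2.trans hb.2.symm)
      (ha.2.trans hd.2.symm)
  have := (card_le_card hsub).trans (card_union_le _ _)
  have := h p hpS
  omega

open Classical in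
theorem piece {P : Finset Pt} (hP : Good P) (k M : ℕ) (hM : 1 ≤ M) (F : ℕ)
    (hF : ∀ B ⊆ P, #B ≤ M + 2 * k + 1 → #(Ed B k) ≤ F) (i : ℕ) :
    #{e ∈ Ed P k | #(Up P k (sl e.1 e.2)) / M = i} ≤ F := by
  set W := {e ∈ Ed P k | #(Up P k (sl e.1 e.2)) / M = i} with hW
  rcases W.eq_empty_or_nonempty with h0 | hne
  · rw [h0]
    simp
  obtain ⟨e₀, he₀, hmin⟩ := W.exists_min_image (fun e => sl e.1 e.2) hne
  obtain ⟨e₁, he₁, hmax⟩ := W.exists_max_image (fun e => sl e.1 e.2) hne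
  set B := {p ∈ P | ∃ e ∈ W, ht (sl e.1 e.2) p ≤ ht (sl e.1 e.2) e.1} with hB
  have hBP : B ⊆ P := filter_subset _ _
  have hWE : W ⊆ Ed B k := by
    intro e he
    have heE : e ∈ Ed P k := (mem_filter.1 he).1
    have h1 := mem_filter.1 heE
    obtain ⟨h2, h3, h4⟩ := h1
    rw [mem_product] at h2
    unfold Ed
    rw [mem_filter, mem_product]
    refine ⟨⟨?_, ?_⟩, h3, ?_⟩
    · exact mem_filter.2 ⟨h2.1, e, he, le_rfl⟩
    · exact mem_filter.2 ⟨h2.2, e, he, (ht_sl h3).le⟩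
    · rw [← h4]
      congr 1
      ext v
      exact ⟨fun h => mem_filter.2 ⟨hBP (mem_filter.1 h).1, (mem_filter.1 h).2⟩,
        fun h => mem_filter.2 ⟨mem_filter.2 ⟨(mem_filter.1 h).1, e, he, (mem_filter.1 h).2.le⟩,
          (mem_filter.1 h).2⟩⟩
  refine (card_le_card hWE).trans (hF B hBP ?_)
  set s := sl e₀.1 e₀.2 with hs
  set B1 := {p ∈ P | (∃ e ∈ Ed P k, sl e.1 e.2 ≤ s ∧ ht (sl e.1 e.2) p ≤ ht (sl e.1 e.2) e.1) ∧
    ∃ e ∈ Ed P k, s ≤ sl e.1 e.2 ∧ ht (sl e.1 e.2) p ≤ ht (sl e.1 e.2) e.1} with hB1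
  have hc1 : #B1 ≤ 2 * k + 2 := card_top hP B1 (filter_subset _ _) fun p hp => by
    have := mem_filter.1 hp
    exact below_both hP this.1 this.2.1 this.2.2
  have hs1 : s ≤ sl e₁.1 e₁.2 := hmin e₁ he₁
  have hmono := Up_mono P k hs1
  have hsub : B ⊆ B1 ∪ (Up P k (sl e₁.1 e₁.2) \ Up P k s) := by
    intro p hp
    obtain ⟨hpP, e, he, hact⟩ := mem_filter.1 hp
    have heE : e ∈ Ed P k := (mem_filter.1 he).1
    have hse : s ≤ sl e.1 e.2 := hmin e he
    rw [mem_union, mem_sdiff]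
    by_cases h : p ∈ Up P k s
    · left
      exact mem_filter.2 ⟨hpP, (mem_filter.1 h).2, e, heE, hse, hact⟩
    · right
      exact ⟨mem_filter.2 ⟨hpP, e, heE, hmax e he, hact⟩, h⟩
  have h0 : #(Up P k s) / M = i := (mem_filter.1 he₀).2
  have h1 : #(Up P k (sl e₁.1 e₁.2)) / M = i := (mem_filter.1 he₁).2
  have hc2 : #(Up P k (sl e₁.1 e₁.2) \ Up P k s) + 1 ≤ M := by
    rw [card_sdiff_of_subset hmono]
    have ha : i * M ≤ #(Up P k s) := by
      rw [← h0]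
      exact Nat.div_mul_le_self _ _
    have hb : #(Up P k (sl e₁.1 e₁.2)) < i * M + M := by
      have h5 := Nat.div_add_mod (#(Up P k (sl e₁.1 e₁.2))) M
      have h6 := Nat.mod_lt (#(Up P k (sl e₁.1 e₁.2))) (show M > 0 by omega)
      rw [h1, mul_comm M i] at h5
      omega
    omega
  have := (card_le_card hsub).trans (card_union_le _ _)
  omega

open Classical in
/-- ROW C -/
theorem specC {P : Finset Pt} (hP : Good P) (k M : ℕ) (hM : 1 ≤ M) (F : ℕ)
    (hF : ∀ B ⊆ P, #B ≤ M + 2 * k + 1 → #(Ed B k) ≤ F) :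
    M * #(Ed P k) ≤ (#P + M) * F := by
  have h1 : #(Ed P k) ≤ (#P / M + 1) * F := by
    have h2 : #(Ed P k) = ∑ i ∈ range (#P / M + 1),
        #{e ∈ Ed P k | #(Up P k (sl e.1 e.2)) / M = i} := by
      refine card_eq_sum_card_fiberwise fun e _ => ?_
      rw [mem_coe, mem_range, Nat.lt_succ_iff]
      exact Nat.div_le_div_right (card_le_card (filter_subset _ _))
    rw [h2]
    refine (sum_le_card_nsmul _ _ F fun i _ => piece hP k M hM F hF i).trans ?_
    rw [card_range, smul_eq_mul]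
  calc M * #(Ed P k) ≤ M * ((#P / M + 1) * F) := Nat.mul_le_mul_left _ h1
    _ = (#P / M * M + M) * F := by ring
    _ ≤ (#P + M) * F :=
      Nat.mul_le_mul_right _ (Nat.add_le_add_right (Nat.div_mul_le_self _ _) _)

end Vale.Agent.P065.R2.H841.H110
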